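import Vale.Agent.P170.Main

open Filter Topology

/-- The satisfiability threshold conjecture: for every k ≥ 3, random k-SAT has a limiting
threshold. -/
theorem Vale.Agent.Results.P170.A_full.result :
    ∀ k : ℕ, 3 ≤ k → ∃ α : ℝ, 0 < α ∧
      (∀ c : ℝ, 0 ≤ c → c < α →
        Tendsto (fun n : ℕ => Vale.Agent.P170.satProb k n ⌊c * n⌋₊) atTop (𝓝 1)) ∧
      (∀ c : ℝ, α < c →
        Tendsto (fun n : ℕ => Vale.Agent.P170.satProb k n ⌊c * n⌋₊) atTop (𝓝 0)) :=
  fun _ hk => Vale.Agent.P170.threshold hk
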